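import Vale.Agent.P372.H897.SF
import Vale.Agent.P372.H399.FmDefs

/-!
# The strong flip of the noise on one system
-/

set_option autoImplicit false
set_option linter.unusedSectionVars false

open Matrix Kronecker
open scoped ComplexOrder

namespace Vale.Agent.P372.H297

open Vale.Agent.P372.Fm

/-! ### Bits -/

theorem bit_cases (a : ZMod 2) : a = 0 ∨ a = 1 := by
  revert a; decide

theorem one_add_one_bit : (1 : ZMod 2) + 1 = 0 := by decide

theorem sg_add (a b : ZMod 2) : sg (a + b) = sg a * sg b := by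
  rcases bit_cases a with rfl | rfl <;> rcases bit_cases b with rfl | rfl <;>
    simp [sg, one_add_one_bit]

theorem sg_zero : sg 0 = 1 := by simp [sg]

theorem sg_one : sg 1 = -1 := by simp [sg]

theorem sg_sq (a : ZMod 2) : sg a * sg a = 1 := by
  rcases bit_cases a with rfl | rfl <;> simp [sg]

theorem sg_sum {ι : Type} (s : Finset ι) (f : ι → ZMod 2) : sg (∑ i ∈ s, f i) = ∏ i ∈ s, sg (f i) := by
  classical
  induction s using Finset.induction_on with
  | empty => simp [sg]
  | insert a s ha ih => rw [Finset.sum_insert ha, Finset.prod_insert ha, sg_add, ih]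

/-- the indicator of `1` -/
def ee (z : ZMod 2) : ℝ := if z = 0 then 0 else 1

theorem pw_add (a b : ZMod 2) : pw (a + b) = (2 / 3 * (ee a * ee b)) + pw a * pw b := by
  have h3 : (√3)⁻¹ * (√3)⁻¹ = (1 / 3 : ℝ) := by
    rw [← mul_inv, Real.mul_self_sqrt (by norm_num)]; norm_num
  rcases bit_cases a with rfl | rfl <;> rcases bit_cases b with rfl | rfl
  · simp [pw, ee]
  · simp [pw, ee]
  · simp [pw, ee]
  · simp only [pw, ee, one_add_one_bit, if_true, one_ne_zero, if_false, h3]; norm_num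

theorem pw_mul (a b : ZMod 2) :
    pw a * pw b * sg (a * b) = -(2 / 3 * (ee a * ee b)) + pw a * pw b := by
  have h3 : (√3)⁻¹ * (√3)⁻¹ = (1 / 3 : ℝ) := by
    rw [← mul_inv, Real.mul_self_sqrt (by norm_num)]; norm_num
  rcases bit_cases a with rfl | rfl <;> rcases bit_cases b with rfl | rfl
  · simp [pw, ee, sg]
  · simp [pw, ee, sg]
  · simp [pw, ee, sg]
  · simp only [pw, ee, sg, mul_one, one_ne_zero, if_false, h3]; norm_num

/-- the square roots of the two kernels -/
noncomputable def fd {ι : Type} [Fintype ι] [DecidableEq ι] (D : Finset ι) (a : ι → ZMod 2) : ℝ :=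
  (∏ r ∈ D, ee (a r)) * ∏ r ∈ Finset.univ \ D, pw (a r)

theorem prod_add_split {ι : Type} [Fintype ι] [DecidableEq ι] (a b : ι → ZMod 2) (c : ℝ) :
    ∏ r, (c * (2 / 3 * (ee (a r) * ee (b r))) + pw (a r) * pw (b r)) =
      ∑ D ∈ (Finset.univ : Finset ι).powerset, c ^ D.card * (2 / 3) ^ D.card * (fd D a * fd D b) := by
  rw [Finset.prod_add]
  refine Finset.sum_congr rfl fun D _ => ?_
  rw [Finset.prod_mul_distrib, Finset.prod_mul_distrib, Finset.prod_mul_distrib,
    Finset.prod_mul_distrib, Finset.prod_const, Finset.prod_const]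
  unfold fd
  ring

/-! ### Symplectic form -/

/-- the characters -/
def ch {m : ℕ} (g : V m × V m) : Option (Fin m × Bool) → ZMod 2
  | none => ∑ j, g.1 j
  | some (j, false) => cw g j
  | some (j, true) => g.1 j + cw g j

theorem cw_add {m : ℕ} (g h : V m × V m) (j : Fin m) : cw (g + h) j = cw g j + cw h j := by
  unfold cw
  have : ∑ k, (if j < k then (g + h).1 k else 0) =
      ∑ k, (if j < k then g.1 k else 0) + ∑ k, (if j < k then h.1 k else 0) := by
    rw [← Finset.sum_add_distrib]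
    refine Finset.sum_congr rfl fun k _ => ?_
    split_ifs <;> simp
  rw [this]
  simp only [Prod.snd_add, Pi.add_apply]
  ring

theorem ch_add {m : ℕ} (g h : V m × V m) (r : Option (Fin m × Bool)) :
    ch (g + h) r = ch g r + ch h r := by
  rcases r with _ | ⟨j, _ | _⟩
  · simp [ch, Finset.sum_add_distrib]
  · simp [ch, cw_add]
  · simp only [ch, cw_add, Prod.fst_add, Pi.add_apply]; ring

theorem prod_ch {m : ℕ} (F : ZMod 2 → ℝ) (g : V m × V m) :
    ∏ r, F (ch g r) = F (∑ j, g.1 j) * ∏ j, (F (g.1 j + cw g j) * F (cw g j)) := by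
  rw [Fintype.prod_option, Fintype.prod_prod_type]
  simp [ch]

theorem mu_eq {m : ℕ} (g : V m × V m) : mu g = ∏ r, pw (ch g r) := by
  rw [prod_ch]; rfl

theorem two_mul_bit (a : ZMod 2) : a + a = 0 := by
  rcases bit_cases a with rfl | rfl <;> decide

theorem symp {m : ℕ} (g h : V m × V m) :
    ∑ r, ch g r * ch h r = g.2 ⬝ᵥ h.1 + h.2 ⬝ᵥ g.1 := by
  rw [Fintype.sum_option, Fintype.sum_prod_type]
  simp only [Fintype.sum_bool, ch]
  have e1 : ∀ j, (g.1 j + cw g j) * (h.1 j + cw h j) + cw g j * cw h j =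
      g.2 j * h.1 j + h.2 j * g.1 j + (g.1 j * h.1 j
        + g.1 j * (∑ k, if j < k then h.1 k else 0)
        + h.1 j * (∑ k, if j < k then g.1 k else 0)) + (cw g j * cw h j + cw g j * cw h j) := by
    intro j
    unfold cw
    ring
  have e2 : (∑ j, g.1 j) * (∑ j, h.1 j) = ∑ j, (g.1 j * h.1 j
        + g.1 j * (∑ k, if j < k then h.1 k else 0)
        + h.1 j * (∑ k, if j < k then g.1 k else 0)) := by
    rw [Finset.sum_mul_sum]
    have e3 : ∑ j, h.1 j * (∑ k, if j < k then g.1 k else 0) =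
        ∑ j, ∑ k, if k < j then g.1 j * h.1 k else 0 := by
      rw [Finset.sum_comm]
      refine Finset.sum_congr rfl fun j _ => ?_
      rw [Finset.mul_sum]
      refine Finset.sum_congr rfl fun k _ => ?_
      split_ifs <;> simp [mul_comm]
    rw [Finset.sum_add_distrib, Finset.sum_add_distrib, e3, ← Finset.sum_add_distrib,
      ← Finset.sum_add_distrib]
    refine Finset.sum_congr rfl fun j _ => ?_
    rw [Finset.mul_sum]
    have e4 : g.1 j * h.1 j = ∑ k, if k = j then g.1 j * h.1 k else 0 := by simp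
    rw [e4, ← Finset.sum_add_distrib, ← Finset.sum_add_distrib]
    refine Finset.sum_congr rfl fun k _ => ?_
    rcases lt_trichotomy j k with hjk | hjk | hjk
    · simp [hjk, hjk.not_gt, hjk.ne']
    · subst hjk; simp
    · simp [hjk, hjk.not_gt, hjk.ne]
  simp only [e1]
  rw [Finset.sum_add_distrib, Finset.sum_add_distrib, ← e2]
  simp only [two_mul_bit, Finset.sum_const_zero, add_zero]
  rw [Finset.sum_add_distrib]
  have := two_mul_bit ((∑ j, g.1 j) * (∑ j, h.1 j))
  simp only [dotProduct]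
  linear_combination this

/-- the commutation sign -/
def eps {m : ℕ} (g h : V m × V m) : ℝ := sg (g.2 ⬝ᵥ h.1) * sg (h.2 ⬝ᵥ g.1)

theorem mu_mul {m : ℕ} (g h : V m × V m) :
    mu g * mu h * eps g h = ∏ r, (pw (ch g r) * pw (ch h r) * sg (ch g r * ch h r)) := by
  rw [Finset.prod_mul_distrib, Finset.prod_mul_distrib, ← mu_eq, ← mu_eq, ← sg_sum, symp, sg_add]
  rfl

theorem kernel_sub {m : ℕ} (g h : V m × V m) :
    mu (g + h) - mu g * mu h * eps g h =
      ∑ D ∈ (Finset.univ : Finset (Option (Fin m × Bool))).powerset,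
        ((1 - (-1) ^ D.card) * (2 / 3) ^ D.card) * (fd D (ch g) * fd D (ch h)) := by
  rw [mu_mul, mu_eq]
  have h1 := prod_add_split (ch g) (ch h) 1
  have h2 := prod_add_split (ch g) (ch h) (-1)
  simp only [ch_add, pw_add, pw_mul]
  simp only [one_mul, one_pow] at h1
  simp only [neg_mul, one_mul] at h2
  rw [h1, h2, ← Finset.sum_sub_distrib]
  refine Finset.sum_congr rfl fun D _ => ?_
  ring

theorem kernel_add {m : ℕ} (g h : V m × V m) :
    mu (g + h) + mu g * mu h * eps g h =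
      ∑ D ∈ (Finset.univ : Finset (Option (Fin m × Bool))).powerset,
        ((1 + (-1) ^ D.card) * (2 / 3) ^ D.card) * (fd D (ch g) * fd D (ch h)) := by
  rw [mu_mul, mu_eq]
  have h1 := prod_add_split (ch g) (ch h) 1
  have h2 := prod_add_split (ch g) (ch h) (-1)
  simp only [ch_add, pw_add, pw_mul]
  simp only [one_mul, one_pow] at h1
  simp only [neg_mul, one_mul] at h2
  rw [h1, h2, ← Finset.sum_add_distrib]
  refine Finset.sum_congr rfl fun D _ => ?_
  ring

/-! ### Pauli matrices -/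

theorem sg_neg_one_sum {m : ℕ} (x : V m) :
    ∑ v : V m, sg (v ⬝ᵥ x) = if x = 0 then (2 : ℝ) ^ m else 0 := by
  have h1 : ∑ v : V m, sg (v ⬝ᵥ x) = ∏ i : Fin m, ∑ z : ZMod 2, sg (z * x i) := by
    rw [Finset.prod_univ_sum, Fintype.piFinset_univ]
    refine Finset.sum_congr rfl fun v _ => ?_
    rw [dotProduct, sg_sum]
  have h2 : ∀ a : ZMod 2, ∑ z : ZMod 2, sg (z * a) = if a = 0 then 2 else 0 := by
    intro a
    have : (Finset.univ : Finset (ZMod 2)) = {0, 1} := by decide
    rw [this, Finset.sum_pair (by decide)]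
    rcases bit_cases a with rfl | rfl
    · simp [sg]; norm_num
    · simp [sg]
  rw [h1]
  simp only [h2]
  by_cases hx : x = 0
  · subst hx; simp
  · rw [if_neg hx]
    obtain ⟨i, hi⟩ : ∃ i, x i ≠ 0 := by
      by_contra hc
      push Not at hc
      exact hx (funext hc)
    exact Finset.prod_eq_zero (Finset.mem_univ i) (by simp [hi])

theorem sg_dot_add {m : ℕ} (a x y : V m) : sg (a ⬝ᵥ (x + y)) = sg (a ⬝ᵥ x) * sg (a ⬝ᵥ y) := by
  rw [dotProduct_add, sg_add]

theorem sg_add_dot {m : ℕ} (a b x : V m) : sg ((a + b) ⬝ᵥ x) = sg (a ⬝ᵥ x) * sg (b ⬝ᵥ x) := by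
  rw [add_dotProduct, sg_add]

theorem vadd_self {m : ℕ} (x : V m) : x + x = 0 := by
  funext i; exact two_mul_bit (x i)

theorem eq_add_iff {m : ℕ} (x y u : V m) : x = y + u ↔ u = x + y := by
  constructor
  · rintro rfl
    rw [add_comm y u, add_assoc, vadd_self, add_zero]
  · rintro rfl
    rw [add_comm x y, ← add_assoc, vadd_self, zero_add]

theorem star_pl {m : ℕ} (g : V m × V m) (i j : V m) : star (pl g i j) = pl g i j := by
  unfold pl
  split_ifs
  · exact Complex.conj_ofReal _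
  · simp

theorem plT_mul {m : ℕ} (g : V m × V m) : (pl g)ᵀ * pl g = 1 := by
  ext i j
  rw [Matrix.mul_apply, Matrix.one_apply]
  simp only [Matrix.transpose_apply, pl]
  by_cases hij : i = j
  · subst hij
    rw [if_pos rfl, Finset.sum_eq_single (i + g.1)]
    · rw [if_pos rfl, ← Complex.ofReal_mul, sg_sq]; simp
    · intro k _ hk; simp [hk]
    · simp
  · rw [if_neg hij]
    refine Finset.sum_eq_zero fun k _ => ?_
    by_cases h1 : k = i + g.1
    · rw [if_neg (c := k = j + g.1), mul_zero]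
      rintro h2
      exact hij (add_right_cancel (h1.symm.trans h2))
    · rw [if_neg h1, zero_mul]

theorem mul_plT {m : ℕ} (g : V m × V m) : pl g * (pl g)ᵀ = 1 :=
  mul_eq_one_comm.mp (plT_mul g)

theorem pl_mul {m : ℕ} (g h : V m × V m) :
    pl g * pl h = ((sg (g.2 ⬝ᵥ h.1) : ℝ) : ℂ) • pl (g + h) := by
  ext i j
  rw [Matrix.mul_apply, Matrix.smul_apply, smul_eq_mul]
  simp only [pl]
  rw [Finset.sum_eq_single (j + h.1)]
  · rw [if_pos rfl]
    have e : (j + h.1 + g.1 : V m) = j + (g + h).1 := by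
      rw [Prod.fst_add]; abel
    rw [e]
    by_cases h1 : i = j + (g + h).1
    · rw [if_pos h1, if_pos h1, sg_dot_add, Prod.snd_add, sg_add_dot]
      push_cast; ring
    · rw [if_neg h1, if_neg h1]; simp
  · intro k _ hk; simp [hk]
  · simp

theorem pl_comm {m : ℕ} (g h : V m × V m) :
    pl h * (pl g)ᵀ = ((eps g h : ℝ) : ℂ) • ((pl g)ᵀ * pl h) := by
  have h1 : pl g * pl h = ((eps g h : ℝ) : ℂ) • (pl h * pl g) := by
    rw [pl_mul, pl_mul, add_comm h g, smul_smul, ← Complex.ofReal_mul]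
    congr 2
    unfold eps
    rw [mul_assoc, sg_sq, mul_one]
  calc pl h * (pl g)ᵀ = ((pl g)ᵀ * pl g) * pl h * (pl g)ᵀ := by rw [plT_mul, Matrix.one_mul]
    _ = (pl g)ᵀ * (pl g * pl h) * (pl g)ᵀ := by simp only [Matrix.mul_assoc]
    _ = ((eps g h : ℝ) : ℂ) • ((pl g)ᵀ * pl h * (pl g * (pl g)ᵀ)) := by
        rw [h1, Matrix.mul_smul, Matrix.smul_mul]; simp only [Matrix.mul_assoc]
    _ = _ := by rw [mul_plT, Matrix.mul_one]

theorem pl_complete {m : ℕ} (p q r a : V m) :
    ∑ g : V m × V m, pl g p q * pl g r a = if p = r ∧ q = a then (2 : ℂ) ^ m else 0 := by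
  rw [Fintype.sum_prod_type]
  simp only [pl]
  rw [Finset.sum_eq_single (p + q)]
  · have e1 : p = q + (p + q) := (eq_add_iff p q (p + q)).2 rfl
    have e2 : ∀ v : V m, (if p = q + (p + q) then ((sg (v ⬝ᵥ q) : ℝ) : ℂ) else 0) *
        (if r = a + (p + q) then ((sg (v ⬝ᵥ a) : ℝ) : ℂ) else 0) =
        if r = a + (p + q) then ((sg (v ⬝ᵥ (q + a)) : ℝ) : ℂ) else 0 := by
      intro v
      rw [if_pos e1, sg_dot_add]
      split_ifs <;> push_cast <;> ring
    simp only [e2]
    by_cases hr : r = a + (p + q)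
    · simp only [if_pos hr]
      rw [← Complex.ofReal_sum, sg_neg_one_sum]
      have e3 : (q + a = 0) ↔ q = a := by
        constructor
        · intro h
          have := (eq_add_iff q a 0).2 (by rw [h])
          simpa using this
        · rintro rfl; exact vadd_self q
      by_cases hq : q = a
      · subst hq
        have hpr : p = r := by
          rw [hr]; rw [add_comm p q, ← add_assoc, vadd_self, zero_add]
        rw [if_pos (e3.2 rfl), if_pos ⟨hpr, rfl⟩]; push_cast; rfl
      · rw [if_neg (fun h => hq (e3.1 h)), if_neg (fun h => hq h.2)]; simp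
    · simp only [if_neg hr, Finset.sum_const_zero]
      rw [if_neg]
      rintro ⟨rfl, rfl⟩
      exact hr e1
  · intro u _ hu
    refine Finset.sum_eq_zero fun v _ => ?_
    rw [if_neg, zero_mul]
    intro h
    exact hu ((eq_add_iff p q u).1 h)
  · simp

/-! ### The big kernels in the Pauli basis -/

/-- the big kernel with coefficients `κ` in the Pauli basis -/
noncomputable def QQ {m : ℕ} (κ : V m × V m → V m × V m → ℝ) :
    Matrix ((V m × V m) × V m) ((V m × V m) × V m) ℂ :=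
  fun u v => (((2 : ℂ) ^ m)⁻¹) ^ 2 * ∑ g, ∑ h, (κ g h : ℂ) *
    (pl g u.1.1 u.1.2 * pl h v.1.1 v.1.2 * ((pl g)ᵀ * pl h) u.2 v.2)

theorem QQ_sub {m : ℕ} (κ κ' : V m × V m → V m × V m → ℝ) :
    QQ κ - QQ κ' = QQ (fun g h => κ g h - κ' g h) := by
  ext u v
  simp only [QQ, Matrix.sub_apply]
  rw [← mul_sub, ← Finset.sum_sub_distrib]
  congr 1
  refine Finset.sum_congr rfl fun g _ => ?_
  rw [← Finset.sum_sub_distrib]
  refine Finset.sum_congr rfl fun h _ => ?_
  push_cast; ring

theorem QQ_add {m : ℕ} (κ κ' : V m × V m → V m × V m → ℝ) :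
    QQ κ + QQ κ' = QQ (fun g h => κ g h + κ' g h) := by
  ext u v
  simp only [QQ, Matrix.add_apply]
  rw [← mul_add, ← Finset.sum_add_distrib]
  congr 1
  refine Finset.sum_congr rfl fun g _ => ?_
  rw [← Finset.sum_add_distrib]
  refine Finset.sum_congr rfl fun h _ => ?_
  push_cast; ring

/-- the kernel of the map `x_g ↦ f g x_g` -/
noncomputable def WW {m : ℕ} (f : V m × V m → ℝ) : Matrix (V m) ((V m × V m) × V m) ℂ :=
  fun k u => ((2 : ℂ) ^ m)⁻¹ * ∑ g, (f g : ℂ) * (pl g u.1.1 u.1.2 * pl g k u.2)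

theorem star_WW {m : ℕ} (f : V m × V m → ℝ) (k : V m) (u : (V m × V m) × V m) :
    star (WW f k u) = WW f k u := by
  have h2 : star (((2 : ℂ) ^ m)⁻¹) = ((2 : ℂ) ^ m)⁻¹ := by
    rw [star_inv₀, star_pow]; simp
  simp only [WW, star_mul', star_sum, star_pl, h2, Complex.star_def, Complex.conj_ofReal]

theorem WW_mul {m : ℕ} (f : V m × V m → ℝ) : (WW f)ᴴ * WW f = QQ (fun g h => f g * f h) := by
  ext u v
  rw [Matrix.mul_apply]
  simp only [Matrix.conjTranspose_apply, star_WW]
  simp only [WW, QQ, Matrix.mul_apply, Matrix.transpose_apply]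
  have e : ∀ k : V m, ((2 : ℂ) ^ m)⁻¹ * (∑ g, (f g : ℂ) * (pl g u.1.1 u.1.2 * pl g k u.2)) *
      (((2 : ℂ) ^ m)⁻¹ * ∑ g, (f g : ℂ) * (pl g v.1.1 v.1.2 * pl g k v.2)) =
      (((2 : ℂ) ^ m)⁻¹) ^ 2 * ∑ g, ∑ h, (f g : ℂ) * f h * (pl g u.1.1 u.1.2 * pl h v.1.1 v.1.2 *
        (pl g k u.2 * pl h k v.2)) := by
    intro k
    rw [mul_mul_mul_comm, ← sq, Finset.sum_mul_sum]
    congr 1
    refine Finset.sum_congr rfl fun g _ => Finset.sum_congr rfl fun h _ => ?_
    ring
  simp only [e]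
  rw [← Finset.mul_sum, Finset.sum_comm]
  congr 1
  refine Finset.sum_congr rfl fun g _ => ?_
  rw [Finset.sum_comm]
  refine Finset.sum_congr rfl fun h _ => ?_
  rw [Finset.mul_sum, Finset.mul_sum]
  refine Finset.sum_congr rfl fun k _ => ?_
  push_cast; ring

theorem K1_tk (m : ℕ) : H897.K1 (tk m) = QQ (fun g h => mu (g + h)) := by
  ext u v
  obtain ⟨⟨p, q⟩, i⟩ := u
  obtain ⟨⟨r, s⟩, j⟩ := v
  simp only [H897.K1, QQ, tk]
  have h1 : ∀ g : V m × V m, ∑ h, ((mu (g + h) : ℝ) : ℂ) *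
      (pl g p q * pl h r s * ((pl g)ᵀ * pl h) i j) =
      ∑ k, ((mu k : ℝ) : ℂ) * (pl g p q * (pl g * pl k) r s * pl k i j) := by
    intro g
    rw [← Equiv.sum_comp (Equiv.addLeft g)]
    refine Finset.sum_congr rfl fun k _ => ?_
    have e1 : g + (g + k) = k := by
      ext x
      · simp only [Prod.fst_add, Pi.add_apply]; rw [← add_assoc, two_mul_bit, zero_add]
      · simp only [Prod.snd_add, Pi.add_apply]; rw [← add_assoc, two_mul_bit, zero_add]
    have e2 : pl (g + k) = ((sg (g.2 ⬝ᵥ k.1) : ℝ) : ℂ) • (pl g * pl k) := by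
      rw [pl_mul, smul_smul, ← Complex.ofReal_mul, sg_sq]; simp
    simp only [Equiv.coe_addLeft]
    rw [e1, e2, Matrix.mul_smul, ← Matrix.mul_assoc, plT_mul, Matrix.one_mul]
    simp only [Matrix.smul_apply, smul_eq_mul]
    have e3 : ((sg (g.2 ⬝ᵥ k.1) : ℝ) : ℂ) * ((sg (g.2 ⬝ᵥ k.1) : ℝ) : ℂ) = 1 := by
      rw [← Complex.ofReal_mul, sg_sq]; simp
    linear_combination ((mu k : ℝ) : ℂ) * (pl g p q * (pl g * pl k) r s * pl k i j) * e3
  simp only [h1]
  rw [Finset.sum_comm]
  have h2 : ∀ k : V m × V m, ∑ g, ((mu k : ℝ) : ℂ) * (pl g p q * (pl g * pl k) r s * pl k i j) =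
      ((mu k : ℝ) : ℂ) * pl k i j * (if p = r then (2 : ℂ) ^ m * pl k q s else 0) := by
    intro k
    have h3 : ∑ g, pl g p q * (pl g * pl k) r s = if p = r then (2 : ℂ) ^ m * pl k q s else 0 := by
      simp only [Matrix.mul_apply, Finset.mul_sum]
      rw [Finset.sum_comm]
      have h4 : ∀ a : V m, ∑ g, pl g p q * (pl g r a * pl k a s) =
          (if p = r ∧ q = a then (2 : ℂ) ^ m else 0) * pl k a s := by
        intro a
        rw [← pl_complete, Finset.sum_mul]
        exact Finset.sum_congr rfl fun g _ => by ring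
      simp only [h4]
      by_cases hpr : p = r
      · simp [hpr]
      · simp [hpr]
    rw [← h3, Finset.mul_sum]
    exact Finset.sum_congr rfl fun g _ => by ring
  simp only [h2]
  by_cases hpr : p = r
  · simp only [if_pos hpr]
    rw [Finset.mul_sum, Finset.mul_sum]
    refine Finset.sum_congr rfl fun k _ => ?_
    have h2m : ((2 : ℂ) ^ m) ≠ 0 := pow_ne_zero _ two_ne_zero
    field_simp
  · simp only [if_neg hpr, mul_zero, Finset.sum_const_zero]

theorem K2_tk (m : ℕ) : H897.K2 (tk m) = QQ (fun g h => mu g * mu h * eps g h) := by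
  ext u v
  obtain ⟨⟨p, q⟩, i⟩ := u
  obtain ⟨⟨r, s⟩, j⟩ := v
  simp only [H897.K2, QQ]
  have hs : ∀ k, star (tk m p q j k) = tk m p q j k := by
    intro k
    have h2 : star (((2 : ℂ) ^ m)⁻¹) = ((2 : ℂ) ^ m)⁻¹ := by
      rw [star_inv₀, star_pow]; simp
    simp only [tk, star_mul', star_sum, star_pl, h2, Complex.star_def, Complex.conj_ofReal]
  simp only [hs]
  have e : ∀ k : V m, tk m r s i k * tk m p q j k =
      (((2 : ℂ) ^ m)⁻¹) ^ 2 * ∑ g, ∑ h, ((mu g : ℝ) : ℂ) * ((mu h : ℝ) : ℂ) *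
        (pl g p q * pl h r s * (pl h i k * pl g j k)) := by
    intro k
    simp only [tk]
    rw [mul_mul_mul_comm, ← sq, Finset.sum_mul_sum, Finset.sum_comm]
    congr 1
    refine Finset.sum_congr rfl fun g _ => Finset.sum_congr rfl fun h _ => ?_
    ring
  simp only [e]
  rw [← Finset.mul_sum, Finset.sum_comm]
  congr 1
  refine Finset.sum_congr rfl fun g _ => ?_
  rw [Finset.sum_comm]
  refine Finset.sum_congr rfl fun h _ => ?_
  have h5 : (pl h * (pl g)ᵀ) i j = ((eps g h : ℝ) : ℂ) * ((pl g)ᵀ * pl h) i j := by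
    rw [pl_comm]; rfl
  have h6 : (pl h * (pl g)ᵀ) i j = ∑ k, pl h i k * pl g j k := by
    rw [Matrix.mul_apply]; rfl
  have h7 : ∑ k, ((mu g : ℝ) : ℂ) * ((mu h : ℝ) : ℂ) *
        (pl g p q * pl h r s * (pl h i k * pl g j k)) =
      ((mu g : ℝ) : ℂ) * ((mu h : ℝ) : ℂ) * (pl g p q * pl h r s * ∑ k, pl h i k * pl g j k) := by
    rw [Finset.mul_sum, Finset.mul_sum]
  rw [h7, ← h6, h5]
  push_cast; ring

theorem QQ_sum {m : ℕ} {ι : Type} (s : Finset ι) (c : ι → ℝ) (f : ι → V m × V m → ℝ) :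
    QQ (fun g h => ∑ D ∈ s, c D * (f D g * f D h)) = ∑ D ∈ s, c D • ((WW (f D))ᴴ * WW (f D)) := by
  classical
  induction s using Finset.induction_on with
  | empty =>
    ext u v
    simp [QQ]
  | insert D s hD ih =>
    rw [Finset.sum_insert hD, ← ih]
    have e1 : (fun g h => ∑ D ∈ insert D s, c D * (f D g * f D h)) =
        fun g h : V m × V m => c D * (f D g * f D h) + ∑ D ∈ s, c D * (f D g * f D h) := by
      funext g h
      rw [Finset.sum_insert hD]
    rw [e1, ← QQ_add]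
    congr 1
    rw [WW_mul]
    ext u v
    simp only [QQ, Matrix.smul_apply, Complex.real_smul, Finset.mul_sum]
    refine Finset.sum_congr rfl fun g _ => Finset.sum_congr rfl fun h _ => ?_
    push_cast; ring

theorem sum_psd {m : ℕ} {ι : Type} (s : Finset ι) (c : ι → ℝ) (hc : ∀ D ∈ s, 0 ≤ c D)
    (f : ι → V m × V m → ℝ) :
    (QQ (fun g h => ∑ D ∈ s, c D * (f D g * f D h))).PosSemidef := by
  rw [QQ_sum]
  exact Matrix.posSemidef_sum s fun D hD =>
    (Matrix.posSemidef_conjTranspose_mul_self (WW (f D))).smul (hc D hD)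

/-- **The strong flip of the noise on one system.** -/
theorem sf_tk (m : ℕ) : H897.SF (tk m) := by
  constructor
  · rw [K1_tk, K2_tk, QQ_sub]
    simp only [kernel_sub]
    refine sum_psd _ _ (fun D _ => ?_) (fun D g => fd D (ch g))
    refine mul_nonneg ?_ (by positivity)
    rcases neg_one_pow_eq_or ℝ D.card with h | h <;> rw [h] <;> norm_num
  · rw [K1_tk, K2_tk, QQ_add]
    simp only [kernel_add]
    refine sum_psd _ _ (fun D _ => ?_) (fun D g => fd D (ch g))
    refine mul_nonneg ?_ (by positivity)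
    rcases neg_one_pow_eq_or ℝ D.card with h | h <;> rw [h] <;> norm_num

end Vale.Agent.P372.H297
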